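import Vale.Agent.P034.Main

namespace Vale.Agent.Results.P034.Talagrand

open Vale.Agent.P034

universe u

/-- Talagrand's conjecture: the fractional expectation threshold is at most a universal
constant times the integral expectation threshold. -/
theorem result : ∃ K : ℝ, ∀ (X : Type u) [Fintype X] [DecidableEq X] [Nonempty X]
    (F : Finset (Finset X)), F.Nonempty → ∅ ∉ F →
    (∀ A ∈ F, ∀ B : Finset X, A ⊆ B → B ∈ F) →
    ∃ q qf : ℝ,
      IsGreatest {p : ℝ | p ∈ Set.Icc (0 : ℝ) 1 ∧ IsSmall p F} q ∧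
      IsGreatest {p : ℝ | p ∈ Set.Icc (0 : ℝ) 1 ∧
        ∃ g : Finset X → ℝ, IsFracCover g F ∧ fracCost g p ≤ 1 / 2} qf ∧
      qf ≤ K * q := by
  refine ⟨4 * 512 ^ 3, fun X _ _ _ F _ hF _ => ?_⟩
  obtain ⟨q, hq⟩ := exists_max_small F hF
  obtain ⟨qf, hqf⟩ := exists_max_frac F hF
  refine ⟨q, qf, hq, hqf, ?_⟩
  obtain ⟨⟨h0, h1⟩, g, hg, hw⟩ := hqf.1
  have hs := small_of_frac F hF g hg qf h0 hw
  have h2 : qf / (4 * 512 ^ 3) ≤ q := by
    refine hq.2 ⟨⟨by positivity, ?_⟩, hs⟩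
    rw [div_le_one (by norm_num)]
    linarith
  rw [div_le_iff₀ (by norm_num)] at h2
  linarith

end Vale.Agent.Results.P034.Talagrand
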